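import Vale.Agent.P245.H895.QuadG
import Vale.Agent.P245.K2.Norm

/-!
P245, KLS: passage from regular isotropic potentials to all log-concave laws (helper235).
-/

set_option linter.all false

open MeasureTheory Filter Topology Set Metric Matrix
open scoped NNReal ENNReal ContDiff
open Vale.Agent.P227.M Vale.Agent.P254 Vale.Agent.P245 Vale.Agent.P245.Q895

namespace Vale.Agent.P245.K2.Norm

variable {n : ℕ} {μ : Measure (E n)}

/-- **LIM**: the Poincaré inequality in covariance form for every log-concave law with density -/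
theorem poinc_lc {C : ℝ} (hC : PoincIso C) [IsProbabilityMeasure μ] (hlc : HasLogConcaveDensity μ)
    {b : Fin n → ℝ} (hb : ∀ i, ∫ x, x i ∂μ = b i)
    {K : Matrix (Fin n) (Fin n) ℝ} (hK : ∀ i j, ∫ x, (x i - b i) * (x j - b j) ∂μ = K i j)
    {f : E n → ℝ} (hf : Test f) :
    (∫ x, f x ^ 2 ∂μ) - (∫ x, f x ∂μ) ^ 2 ≤
      C * ∫ x, ∑ i, ∑ j, K i j * (pd i f x * pd j f x) ∂μ := by
  obtain ⟨V, hV, hlim⟩ := lim_main hlc
  set bk : ℕ → Fin n → ℝ := fun k i => Ex (V k) (fun x => x i) with hbk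
  have hbl : ∀ i, Tendsto (fun k => bk k i) atTop (𝓝 (b i)) := by
    intro i
    have := hlim (fun _ x => x i) (fun x => x i) 1 1 (fun _ => by fun_prop) (fun k x => by
      have h1 := abs_coord_le x i
      rw [one_mul, pow_one]
      linarith) (fun x u hu => tendsto_coord hu i)
    rwa [hb i] at this
  obtain ⟨B, hB⟩ : ∃ B : ℝ, ∀ k i, |bk k i| ≤ B := by
    have h1 : ∀ i, ∃ B : ℝ, ∀ k, |bk k i| ≤ B := fun i => by
      obtain ⟨B, hB⟩ := (hbl i).abs.bddAbove_range
      exact ⟨B, fun k => hB ⟨k, rfl⟩⟩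
    choose Bi hBi using h1
    refine ⟨∑ i, |Bi i|, fun k i => (hBi i k).trans ((le_abs_self _).trans ?_)⟩
    exact Finset.single_le_sum (f := fun i => |Bi i|) (fun j _ => abs_nonneg _) (Finset.mem_univ i)
  have hB0 : ∀ (x : E n) k (i : Fin n), |x i - bk k i| ≤ (1 + B) * (1 + ‖x‖) := fun x k i =>
    centre_bound (hB k i) x i
  have hpr : ∀ (x : E n) k (i j : Fin n), |(x i - bk k i) * (x j - bk k j)| ≤
      (1 + B) ^ 2 * (1 + ‖x‖) ^ 2 := by
    intro x k i j
    rw [abs_mul]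
    have h1 := mul_le_mul (hB0 x k i) (hB0 x k j) (abs_nonneg _)
      ((abs_nonneg _).trans (hB0 x k i))
    refine h1.trans (le_of_eq (by ring))
  set Kk : ℕ → Matrix (Fin n) (Fin n) ℝ := fun k => Matrix.of fun i j =>
    Ex (V k) (fun x => (x i - bk k i) * (x j - bk k j)) with hKk
  have hprl : ∀ (x : E n) (u : ℕ → E n), Tendsto u atTop (𝓝 x) → ∀ i j : Fin n,
      Tendsto (fun k => (u k i - bk k i) * (u k j - bk k j)) atTop (𝓝 ((x i - b i) * (x j - b j))) :=
    fun x u hu i j => ((tendsto_coord hu i).sub (hbl i)).mul ((tendsto_coord hu j).sub (hbl j))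
  have hKl : ∀ i j, Tendsto (fun k => Kk k i j) atTop (𝓝 (K i j)) := by
    intro i j
    have := hlim (fun k x => (x i - bk k i) * (x j - bk k j)) (fun x => (x i - b i) * (x j - b j))
      ((1 + B) ^ 2) 2 (fun _ => by fun_prop) (fun k x => hpr x k i j) (fun x u hu => hprl x u hu i j)
    rwa [hK i j] at this
  obtain ⟨D, hD0, hD⟩ : ∃ D : ℝ, 0 ≤ D ∧ ∀ k i j, |Kk k i j| ≤ D := by
    have h1 : ∀ i j, ∃ D : ℝ, ∀ k, |Kk k i j| ≤ D := fun i j => by
      obtain ⟨D, hD⟩ := (hKl i j).abs.bddAbove_range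
      exact ⟨D, fun k => hD ⟨k, rfl⟩⟩
    choose Di hDi using h1
    refine ⟨∑ i, ∑ j, |Di i j|, by positivity, fun k i j => (hDi i j k).trans ((le_abs_self _).trans ?_)⟩
    have h2 : |Di i j| ≤ ∑ j, |Di i j| :=
      Finset.single_le_sum (f := fun j => |Di i j|) (fun j _ => abs_nonneg _) (Finset.mem_univ j)
    exact h2.trans (Finset.single_le_sum (f := fun i => ∑ j, |Di i j|)
      (fun i _ => Finset.sum_nonneg fun j _ => abs_nonneg _) (Finset.mem_univ i))
  -- bounds of `f` and its derivatives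
  have hfc : Continuous f := hf.1.continuous
  have hpdc : ∀ i, Continuous (pd i f) := fun i =>
    ((hf.1.continuous_fderiv (by simp)).clm_apply continuous_const)
  have hbdd : ∀ g : E n → ℝ, Continuous g → (∀ x, x ∉ tsupport f → g x = 0) →
      ∃ M : ℝ, ∀ x, |g x| ≤ M := by
    intro g hg h0
    obtain ⟨M, hM⟩ := (HasCompactSupport.intro hf.2.isCompact h0).exists_bound_of_continuous hg
    exact ⟨M, fun x => hM x⟩
  obtain ⟨F, hF⟩ := hbdd f hfc fun x hx => image_eq_zero_of_notMem_tsupport hx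
  have hF0 : 0 ≤ F := (abs_nonneg _).trans (hF 0)
  have hG1 : ∀ i, ∃ M : ℝ, ∀ x, |pd i f x| ≤ M := fun i => hbdd _ (hpdc i) fun x hx => by
    unfold pd
    rw [fderiv_of_notMem_tsupport (𝕜 := ℝ) hx]
    rfl
  choose G hG using hG1
  have hG0 : ∀ i, 0 ≤ G i := fun i => (abs_nonneg _).trans (hG i 0)
  have l1 := hlim (fun _ => f) f F 0 (fun _ => hfc) (fun k x => by simpa using hF x)
    (fun x u hu => (hfc.tendsto x).comp hu)
  have l2 := hlim (fun _ x => f x ^ 2) (fun x => f x ^ 2) (F ^ 2) 0 (fun _ => hfc.pow 2)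
    (fun k x => by
      rw [abs_pow, pow_zero, mul_one]
      exact pow_le_pow_left₀ (abs_nonneg _) (hF x) 2)
    (fun x u hu => ((hfc.tendsto x).comp hu).pow 2)
  have l3 := hlim (fun k x => ∑ i, ∑ j, Kk k i j * (pd i f x * pd j f x))
    (fun x => ∑ i, ∑ j, K i j * (pd i f x * pd j f x)) (∑ i, ∑ j, D * (G i * G j)) 0
    (fun k => continuous_finset_sum _ fun i _ => continuous_finset_sum _ fun j _ =>
      continuous_const.mul ((hpdc i).mul (hpdc j)))
    (fun k x => by
      rw [pow_zero, mul_one]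
      refine (Finset.abs_sum_le_sum_abs _ _).trans (Finset.sum_le_sum fun i _ => ?_)
      refine (Finset.abs_sum_le_sum_abs _ _).trans (Finset.sum_le_sum fun j _ => ?_)
      rw [abs_mul, abs_mul]
      exact mul_le_mul (hD k i j) (mul_le_mul (hG i x) (hG j x) (abs_nonneg _) (hG0 i))
        (mul_nonneg (abs_nonneg _) (abs_nonneg _)) hD0)
    (fun x u hu => tendsto_finsetSum _ fun i _ => tendsto_finsetSum _ fun j _ =>
      (hKl i j).mul ((((hpdc i).tendsto x).comp hu).mul (((hpdc j).tendsto x).comp hu)))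
  refine le_of_tendsto_of_tendsto' (l2.sub (l1.pow 2)) (l3.const_mul C) fun k => ?_
  obtain ⟨c, C', hR⟩ := hV k
  exact poinc_reg hC hR (b := bk k) (fun i => rfl) (K := Kk k) (fun i j => rfl) hf

end Vale.Agent.P245.K2.Norm
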