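import Vale.Agent.P245.H895.QuadI
import Vale.Agent.P245.H235.Lim

/-!
P245, KLS: the final statements for all log-concave laws, from `PoincIso C` (helper235).
-/

set_option linter.all false

open MeasureTheory Filter Topology Set Metric Matrix
open scoped NNReal ENNReal ContDiff
open Vale.Agent.P227.M Vale.Agent.P254 Vale.Agent.P245 Vale.Agent.P245.Q895

namespace Vale.Agent.P245.K2.Norm

variable {n : ℕ} {μ : Measure (E n)}

/-- covariance form, with gradients -/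
theorem poinc_grad {C : ℝ} (hC : PoincIso C) [IsProbabilityMeasure μ] (hlc : HasLogConcaveDensity μ)
    {b : Fin n → ℝ} (hb : ∀ i, ∫ x, x i ∂μ = b i)
    {K : Matrix (Fin n) (Fin n) ℝ} (hK : ∀ i j, ∫ x, (x i - b i) * (x j - b j) ∂μ = K i j)
    {f : E n → ℝ} (hf : ContDiff ℝ (⊤ : ℕ∞) f) (hs : HasCompactSupport f) :
    (∫ x, f x ^ 2 ∂μ) - (∫ x, f x ∂μ) ^ 2 ≤
      C * ∫ x, ∑ i, ∑ j, K i j * (gradient f x i * gradient f x j) ∂μ := by
  have h := poinc_lc hC hlc hb hK (f := f) ⟨hf, hs⟩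
  simp only [grad_coord]
  exact h

/-- operator norm form -/
theorem poinc_op {C : ℝ} (hC0 : 0 ≤ C) (hC : PoincIso C) [IsProbabilityMeasure μ]
    (hlc : HasLogConcaveDensity μ)
    {b : Fin n → ℝ} (hb : ∀ i, ∫ x, x i ∂μ = b i)
    {K : Matrix (Fin n) (Fin n) ℝ} (hK : ∀ i j, ∫ x, (x i - b i) * (x j - b j) ∂μ = K i j)
    {lam : ℝ} (hlam : ∀ v : Fin n → ℝ, v ⬝ᵥ (K *ᵥ v) ≤ lam * ∑ i, v i ^ 2)
    {f : E n → ℝ} (hf : ContDiff ℝ (⊤ : ℕ∞) f) (hs : HasCompactSupport f) :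
    (∫ x, f x ^ 2 ∂μ) - (∫ x, f x ∂μ) ^ 2 ≤ C * lam * ∫ x, ‖gradient f x‖ ^ 2 ∂μ := by
  refine (poinc_lc hC hlc hb hK (f := f) ⟨hf, hs⟩).trans ?_
  rw [mul_assoc]
  refine mul_le_mul_of_nonneg_left ?_ hC0
  have hpdc : ∀ i, Continuous (pd i f) := fun i =>
    ((hf.continuous_fderiv (by simp)).clm_apply continuous_const)
  have hz : ∀ x, x ∉ tsupport f → ∀ i, pd i f x = 0 := by
    intro x hx i
    unfold pd
    rw [fderiv_of_notMem_tsupport (𝕜 := ℝ) hx]
    rfl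
  have hint : ∀ g : E n → ℝ, Continuous g → (∀ x, x ∉ tsupport f → g x = 0) → Integrable g μ :=
    fun g hg h0 => hg.integrable_of_hasCompactSupport (HasCompactSupport.intro hs.isCompact h0)
  have i1 : Integrable (fun x => ∑ i, ∑ j, K i j * (pd i f x * pd j f x)) μ :=
    hint _ (continuous_finset_sum _ fun i _ => continuous_finset_sum _ fun j _ =>
      continuous_const.mul ((hpdc i).mul (hpdc j))) fun x hx => by simp [hz x hx]
  have i2 : Integrable (fun x => ∑ i, (pd i f x) ^ 2) μ :=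
    hint _ (continuous_finset_sum _ fun i _ => (hpdc i).pow 2) fun x hx => by simp [hz x hx]
  simp only [norm_grad_sq]
  rw [← integral_const_mul]
  refine integral_mono i1 (i2.const_mul _) fun x => ?_
  refine le_trans (le_of_eq ?_) (hlam (fun i => pd i f x))
  unfold dotProduct Matrix.mulVec dotProduct
  refine Finset.sum_congr rfl fun i _ => ?_
  rw [Finset.mul_sum]
  exact Finset.sum_congr rfl fun j _ => by ring

/-- the barycentre and the covariance matrix exist; the covariance matrix bound from one-dimensional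
variances -/
theorem poinc_dir {C : ℝ} (hC0 : 0 ≤ C) (hC : PoincIso C) [IsProbabilityMeasure μ]
    (hlc : HasLogConcaveDensity μ) {lam : ℝ}
    (hlam : ∀ θ : E n, ∫ x, (inner ℝ x θ) ^ 2 ∂μ - (∫ x, inner ℝ x θ ∂μ) ^ 2 ≤ lam * ‖θ‖ ^ 2)
    {f : E n → ℝ} (hf : ContDiff ℝ (⊤ : ℕ∞) f) (hs : HasCompactSupport f) :
    (∫ x, f x ^ 2 ∂μ) - (∫ x, f x ∂μ) ^ 2 ≤ C * lam * ∫ x, ‖gradient f x‖ ^ 2 ∂μ := by
  set b : Fin n → ℝ := fun i => ∫ x, x i ∂μ with hb
  set K : Matrix (Fin n) (Fin n) ℝ := Matrix.of fun i j => ∫ x, (x i - b i) * (x j - b j) ∂μ with hK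
  refine poinc_op hC0 hC hlc (b := b) (fun i => rfl) (K := K) (fun i j => rfl) (fun v => ?_) hf hs
  have hG := gr_lin0 (n := n) v
  have h2 := var_eq hlc hG
  have h3 : ∫ x, (∑ i, v i * x i) ∂μ = ∑ i, v i * b i := by
    rw [integral_finsetSum _ fun i _ => (int_gr hlc (Gr.coord i)).const_mul _]
    exact Finset.sum_congr rfl fun i _ => by rw [integral_const_mul, hb]
  have h4 : v ⬝ᵥ (K *ᵥ v) = ∫ x, ((∑ i, v i * x i) - ∫ y, (∑ i, v i * y i) ∂μ) ^ 2 ∂μ := by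
    rw [← int_lin_mul hlc (b := b) (K := K) (fun i j => rfl) v v, h3]
    refine integral_congr_ae (Eventually.of_forall fun x => ?_)
    have : ∑ i, v i * (x i - b i) = (∑ i, v i * x i) - ∑ i, v i * b i := by
      rw [← Finset.sum_sub_distrib]
      exact Finset.sum_congr rfl fun i _ => by ring
    simp only [this]
    ring
  rw [h4, h2]
  have h5 := hlam (WithLp.toLp 2 v)
  simp only [inner_sum] at h5
  have h6 : ‖(WithLp.toLp 2 v : E n)‖ ^ 2 = ∑ i, v i ^ 2 := by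
    rw [EuclideanSpace.norm_sq_eq]
    exact Finset.sum_congr rfl fun i _ => by rw [Real.norm_eq_abs, sq_abs]
  rw [h6] at h5
  exact h5

/-- subgaussian form -/
theorem poinc_sub {C : ℝ} (hC0 : 0 ≤ C) (hC : PoincIso C) [IsProbabilityMeasure μ]
    (hlc : HasLogConcaveDensity μ) {a : ℝ} (ha : 0 < a) (hsub : LinearlySubgaussian μ a)
    {f : E n → ℝ} (hf : ContDiff ℝ (⊤ : ℕ∞) f) (hs : HasCompactSupport f) :
    (∫ x, f x ^ 2 ∂μ) - (∫ x, f x ∂μ) ^ 2 ≤
      C * (Real.log 2 * a ^ 2) * ∫ x, ‖gradient f x‖ ^ 2 ∂μ :=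
  poinc_op hC0 hC hlc (b := fun i => ∫ x, x i ∂μ) (fun i => rfl)
    (K := Matrix.of fun i j => ∫ x, (x i - ∫ y, y i ∂μ) * (x j - ∫ y, y j ∂μ) ∂μ) (fun i j => rfl)
    (sub_cov hlc ha hsub (fun i => rfl) (fun i j => rfl)) hf hs

end Vale.Agent.P245.K2.Norm
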