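import Vale.Agent.P245.Defs

/-!
P245: the logarithmic Sobolev inequality for functions `f` with `log f - (1/4) ∑ ⟨b_j, x⟩²` concave,
from the one for quasi-concave functions (Gaussian channel, one real parameter at a time).
-/

set_option linter.all false

open MeasureTheory Set Filter
open scoped ContDiff

namespace Vale.Agent.P245.H235.Semi

open Vale.Agent.P245

variable {n : ℕ} {μ : Measure (EuclideanSpace ℝ (Fin n))}

/-- square root of the standard Gaussian density -/
noncomputable def G (u : ℝ) : ℝ := √((√(2 * Real.pi))⁻¹) * Real.exp (-(u ^ 2 / 4))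

/-- its derivative -/
noncomputable def G' (u : ℝ) : ℝ := -(u / 2) * G u

theorem G_pos (u : ℝ) : 0 < G u := by unfold G; positivity

theorem G_contDiff : ContDiff ℝ ∞ G := by unfold G; fun_prop

theorem G_cont : Continuous G := by unfold G; fun_prop

theorem G'_cont : Continuous G' := by unfold G' G; fun_prop

theorem G_deriv (u : ℝ) : HasDerivAt G (G' u) u := by
  have h1 : HasDerivAt (fun u : ℝ => -(u ^ 2 / 4)) (-((2 * u) / 4)) u := by
    have h0 : HasDerivAt (fun u : ℝ => u ^ 2 / 4) ((2 * u) / 4) u := by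
      simpa using (hasDerivAt_pow 2 u).div_const 4
    exact h0.neg
  have h2 := (h1.exp).const_mul (√((√(2 * Real.pi))⁻¹))
  have e : G' u = √((√(2 * Real.pi))⁻¹) * (Real.exp (-(u ^ 2 / 4)) * -((2 * u) / 4)) := by
    unfold G' G; ring
  rw [e]
  exact h2

theorem G_sq (u : ℝ) : G u ^ 2 = ProbabilityTheory.gaussianPDFReal 0 1 u := by
  unfold G ProbabilityTheory.gaussianPDFReal
  rw [mul_pow, Real.sq_sqrt (by positivity), ← Real.exp_nat_mul]
  congr 1
  · simp
  · congr 1
    push_cast; ring

theorem int_G2 : ∫ u, G u ^ 2 = 1 := by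
  simp_rw [G_sq]
  exact ProbabilityTheory.integral_gaussianPDFReal_eq_one 0 one_ne_zero

theorem igr_G2 : Integrable (fun u => G u ^ 2) := by
  simp_rw [G_sq]
  exact ProbabilityTheory.integrable_gaussianPDFReal 0 1

theorem int_uG2 : ∫ u, u * G u ^ 2 = 0 := by
  have h := ProbabilityTheory.integral_gaussianReal_eq_integral_smul (μ := 0) (v := 1)
    (f := fun u : ℝ => u) one_ne_zero
  rw [ProbabilityTheory.integral_id_gaussianReal] at h
  simp_rw [G_sq]
  have e : (∫ u : ℝ, u * ProbabilityTheory.gaussianPDFReal 0 1 u) =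
      ∫ u : ℝ, ProbabilityTheory.gaussianPDFReal 0 1 u • u :=
    integral_congr_ae (Eventually.of_forall fun u => by simp [mul_comm])
  rw [e, ← h]

theorem int_u2G2 : ∫ u, u ^ 2 * G u ^ 2 = 1 := by
  have h := ProbabilityTheory.integral_gaussianReal_eq_integral_smul (μ := 0) (v := 1)
    (f := fun u : ℝ => u ^ 2) one_ne_zero
  have hv := ProbabilityTheory.variance_id_gaussianReal (μ := 0) (v := 1)
  rw [ProbabilityTheory.variance_of_integral_eq_zero aemeasurable_id
    (by simpa using ProbabilityTheory.integral_id_gaussianReal (μ := 0) (v := 1))] at hv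
  simp only [id] at hv
  simp_rw [G_sq]
  rw [hv] at h
  have e : (∫ u : ℝ, u ^ 2 * ProbabilityTheory.gaussianPDFReal 0 1 u) =
      ∫ u : ℝ, ProbabilityTheory.gaussianPDFReal 0 1 u • u ^ 2 :=
    integral_congr_ae (Eventually.of_forall fun u => by simp [mul_comm])
  rw [e, ← h]; simp

theorem igr_u2G2 : Integrable (fun u : ℝ => u ^ 2 * G u ^ 2) :=
  integrable_of_integral_eq_one int_u2G2

theorem igr_GG' : Integrable (fun u : ℝ => G u * G' u) := by
  refine Integrable.mono' (igr_G2.add igr_u2G2) (by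
    exact (G_cont.mul G'_cont).aestronglyMeasurable) (Eventually.of_forall fun u => ?_)
  have h : G u * G' u = -(u / 2) * G u ^ 2 := by unfold G'; ring
  rw [h, Real.norm_eq_abs, abs_mul, abs_neg, abs_of_nonneg (sq_nonneg (G u))]
  simp only [Pi.add_apply]
  have h1 : |u / 2| ≤ 1 + u ^ 2 := by
    rw [abs_le]; constructor <;> nlinarith [sq_nonneg (u + 1), sq_nonneg (u - 1)]
  nlinarith [sq_nonneg (G u)]

theorem int_GG' : ∫ u, G u * G' u = 0 := by
  have e : ∀ u, G u * G' u = -(1 / 2) * (u * G u ^ 2) := fun u => by unfold G'; ring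
  simp_rw [e]
  rw [integral_const_mul, int_uG2, mul_zero]

theorem igr_G'2 : Integrable (fun u : ℝ => G' u ^ 2) := by
  have e : ∀ u, G' u ^ 2 = 1 / 4 * (u ^ 2 * G u ^ 2) := fun u => by unfold G'; ring
  simp_rw [e]
  exact igr_u2G2.const_mul _

theorem int_G'2 : ∫ u, G' u ^ 2 = 1 / 4 := by
  have e : ∀ u, G' u ^ 2 = 1 / 4 * (u ^ 2 * G u ^ 2) := fun u => by unfold G'; ring
  simp_rw [e]
  rw [integral_const_mul, int_u2G2, mul_one]

/-- Fubini for a product of a function of `x` and a function of `ℓ x - y` -/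
theorem fub [SFinite μ] {h : EuclideanSpace ℝ (Fin n) → ℝ} (hh : Integrable h μ) {k : ℝ → ℝ}
    (hk : Integrable k) (hkc : Continuous k) {l : EuclideanSpace ℝ (Fin n) → ℝ} (hl : Continuous l) :
    Integrable (fun y => ∫ x, h x * k (l x - y) ∂μ) ∧
      ∫ y, ∫ x, h x * k (l x - y) ∂μ = (∫ x, h x ∂μ) * ∫ u, k u := by
  have hm : AEStronglyMeasurable (fun p : EuclideanSpace ℝ (Fin n) × ℝ => h p.1 * k (l p.1 - p.2))
      (μ.prod volume) := by
    refine (hh.1.comp_fst).mul ?_
    exact (hkc.comp ((hl.comp continuous_fst).sub continuous_snd)).aestronglyMeasurable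
  have hi : Integrable (fun p : EuclideanSpace ℝ (Fin n) × ℝ => h p.1 * k (l p.1 - p.2))
      (μ.prod volume) := by
    rw [integrable_prod_iff hm]
    refine ⟨Eventually.of_forall fun x => ?_, ?_⟩
    · exact (hk.comp_sub_left (l x)).const_mul (h x)
    · have e : (fun x => ∫ y, ‖h x * k (l x - y)‖) = fun x => ‖h x‖ * ∫ u, ‖k u‖ := by
        funext x
        simp_rw [norm_mul]
        rw [integral_const_mul]
        congr 1
        exact integral_sub_left_eq_self (fun u => ‖k u‖) volume (l x)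
      simp only
      rw [e]
      exact hh.norm.mul_const _
  refine ⟨hi.integral_prod_right, ?_⟩
  have hs : ∫ y, (∫ x, h x * k (l x - y) ∂μ) = ∫ x, (∫ y, h x * k (l x - y)) ∂μ :=
    (integral_integral_swap (f := fun (x : EuclideanSpace ℝ (Fin n)) (y : ℝ) => h x * k (l x - y)) hi).symm
  rw [hs]
  have e : (fun x => ∫ y, h x * k (l x - y)) = fun x => h x * ∫ u, k u := by
    funext x
    rw [integral_const_mul]
    congr 1
    exact integral_sub_left_eq_self (fun u => k u) volume (l x)
  rw [e, integral_mul_const]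

/-- the gradient of `f k(⟨x, b⟩ - y)` -/
theorem grad_mul {f : EuclideanSpace ℝ (Fin n) → ℝ} (hf : ContDiff ℝ ∞ f)
    (b : EuclideanSpace ℝ (Fin n)) (y : ℝ) (x : EuclideanSpace ℝ (Fin n)) :
    gradient (fun x => f x * G (inner ℝ b x - y)) x =
      G (inner ℝ b x - y) • gradient f x + (f x * G' (inner ℝ b x - y)) • b := by
  have h1 : HasFDerivAt f (fderiv ℝ f x) x := (hf.differentiable (by simp)).differentiableAt.hasFDerivAt
  have h2 : HasFDerivAt (fun x : EuclideanSpace ℝ (Fin n) => inner ℝ b x - y) (innerSL ℝ b) x :=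
    ((innerSL ℝ b).hasFDerivAt (x := x)).sub_const y
  have h3 : HasFDerivAt (fun x : EuclideanSpace ℝ (Fin n) => G (inner ℝ b x - y))
      (G' (inner ℝ b x - y) • innerSL ℝ b) x := by
    have h := HasDerivAt.comp_hasFDerivAt x (G_deriv (inner ℝ b x - y)) h2
    exact h
  have h4 := h1.mul h3
  have hg : HasGradientAt (fun x => f x * G (inner ℝ b x - y))
      (G (inner ℝ b x - y) • gradient f x + (f x * G' (inner ℝ b x - y)) • b) x := by
    rw [hasGradientAt_iff_hasFDerivAt]
    have h4' : HasFDerivAt (fun x => f x * G (inner ℝ b x - y))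
      (f x • G' (inner ℝ b x - y) • (innerSL ℝ) b + G (inner ℝ b x - y) • fderiv ℝ f x) x := h4
    refine h4'.congr_fderiv ?_
    refine ContinuousLinearMap.ext fun v => ?_
    have hfg : fderiv ℝ f x v = inner ℝ (gradient f x) v := by
      rw [gradient]; simp
    rw [InnerProductSpace.toDual_apply_apply, inner_add_left, real_inner_smul_left, real_inner_smul_left]
    simp only [ContinuousLinearMap.add_apply, ContinuousLinearMap.smul_apply, innerSL_apply_apply, smul_eq_mul]
    rw [hfg]
    ring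
  exact hg.gradient

theorem norm_sq_comb (p q : ℝ) (u v : EuclideanSpace ℝ (Fin n)) :
    ‖p • u + q • v‖ ^ 2 = ‖u‖ ^ 2 * p ^ 2 + 2 * inner ℝ u v * (p * q) + ‖v‖ ^ 2 * q ^ 2 := by
  rw [norm_add_sq_real, norm_smul, norm_smul, inner_smul_left, inner_smul_right]
  simp only [mul_pow, Real.norm_eq_abs, sq_abs, conj_trivial]
  ring

/-- continuous compactly supported functions are integrable -/
theorem igr [IsFiniteMeasure μ] {h : EuclideanSpace ℝ (Fin n) → ℝ} (hc : Continuous h)
    (hs : HasCompactSupport h) : Integrable h μ :=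
  hc.integrable_of_hasCompactSupport hs

/-- Gibbs variational inequality -/
theorem gibbs [IsProbabilityMeasure μ] {f k : EuclideanSpace ℝ (Fin n) → ℝ} (hf : Continuous f)
    (hs : HasCompactSupport f) (hk : Continuous k) (hm : 0 < ∫ x, f x ^ 2 ∂μ) :
    ∫ x, (f x ^ 2 * (Real.log (f x ^ 2) - Real.log (∫ x, f x ^ 2 ∂μ))) * k x ^ 2 ∂μ ≤
      Entropy μ (fun x => (f x * k x) ^ 2) := by
  set m := ∫ x, f x ^ 2 ∂μ with hmdef
  have hs2 : HasCompactSupport (fun x => f x ^ 2) := by
    refine hs.mono' ?_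
    intro x hx
    refine subset_tsupport _ ?_
    simpa using hx
  have zero_out : ∀ (h : EuclideanSpace ℝ (Fin n) → ℝ), (∀ x, f x = 0 → h x = 0) →
      HasCompactSupport h := by
    intro h hh
    refine hs.mono' fun x hx => subset_tsupport _ ?_
    intro h0
    exact hx (hh x h0)
  have i1 : Integrable (fun x => f x ^ 2) μ := igr (hf.pow 2) hs2
  have i2 : Integrable (fun x => (f x * k x) ^ 2) μ :=
    igr ((hf.mul hk).pow 2) (zero_out _ fun x hx => by simp [hx])
  have i3 : Integrable (fun x => (f x * k x) ^ 2 * Real.log ((f x * k x) ^ 2)) μ :=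
    igr (Real.continuous_mul_log.comp ((hf.mul hk).pow 2)) (zero_out _ fun x hx => by simp [hx])
  have i4 : Integrable
      (fun x => (f x ^ 2 * (Real.log (f x ^ 2) - Real.log m)) * k x ^ 2) μ := by
    refine igr ?_ (zero_out _ fun x hx => by simp [hx])
    refine Continuous.mul ?_ (hk.pow 2)
    have e : (fun x => f x ^ 2 * (Real.log (f x ^ 2) - Real.log m)) =
        fun x => f x ^ 2 * Real.log (f x ^ 2) - f x ^ 2 * Real.log m := by
      funext x; ring
    rw [e]
    exact (Real.continuous_mul_log.comp (hf.pow 2)).sub ((hf.pow 2).mul continuous_const)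
  set M := ∫ x, (f x * k x) ^ 2 ∂μ with hM
  have hM0 : 0 ≤ M := integral_nonneg fun x => sq_nonneg _
  have key : ∀ x, (f x ^ 2 * (Real.log (f x ^ 2) - Real.log m)) * k x ^ 2 ≤
      (f x * k x) ^ 2 * Real.log ((f x * k x) ^ 2) - (f x * k x) ^ 2 * Real.log M -
        (f x * k x) ^ 2 + M / m * f x ^ 2 ∨ M = 0 := by
    intro x
    by_cases hM1 : M = 0
    · exact Or.inr hM1
    left
    have hMp : 0 < M := lt_of_le_of_ne hM0 (Ne.symm hM1)
    by_cases hg : f x * k x = 0
    · have h0 : (f x ^ 2 * (Real.log (f x ^ 2) - Real.log m)) * k x ^ 2 = 0 := by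
        have : f x ^ 2 * k x ^ 2 = 0 := by rw [← mul_pow, hg]; simp
        calc (f x ^ 2 * (Real.log (f x ^ 2) - Real.log m)) * k x ^ 2
            = (f x ^ 2 * k x ^ 2) * (Real.log (f x ^ 2) - Real.log m) := by ring
          _ = 0 := by rw [this]; ring
      rw [h0, hg]
      simp only [ne_eq, OfNat.ofNat_ne_zero, not_false_eq_true, zero_pow, Real.log_zero, mul_zero,
        zero_mul, sub_zero, zero_add]
      positivity
    · have hfx : f x ≠ 0 := fun h => hg (by rw [h]; ring)
      have hg2 : 0 < (f x * k x) ^ 2 := by positivity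
      have hf2 : 0 < f x ^ 2 := by positivity
      have hl := Real.log_le_sub_one_of_pos (x := (M / m * f x ^ 2) / (f x * k x) ^ 2) (by positivity)
      rw [Real.log_div (by positivity) (by positivity), Real.log_mul (by positivity) (by positivity),
        Real.log_div (by positivity) (by positivity)] at hl
      have h5 := mul_le_mul_of_nonneg_left hl hg2.le
      have aux : ∀ A B : ℝ, A ≠ 0 → A * (B / A - 1) = B - A := by
        intro A B hA; field_simp
      have e5 : (f x * k x) ^ 2 * ((M / m * f x ^ 2) / (f x * k x) ^ 2 - 1) =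
          M / m * f x ^ 2 - (f x * k x) ^ 2 := aux _ _ hg2.ne'
      rw [e5] at h5
      have e6 : (f x ^ 2 * (Real.log (f x ^ 2) - Real.log m)) * k x ^ 2 =
          (f x * k x) ^ 2 * (Real.log (f x ^ 2) - Real.log m) := by ring
      rw [e6]
      linarith [h5]
  unfold Entropy
  by_cases hM1 : M = 0
  · have hz : (fun x => (f x * k x) ^ 2) =ᵐ[μ] 0 :=
      (integral_eq_zero_iff_of_nonneg (fun x => sq_nonneg _) i2).1 hM1
    have e1 : ∫ x, (f x ^ 2 * (Real.log (f x ^ 2) - Real.log m)) * k x ^ 2 ∂μ = 0 := by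
      rw [integral_eq_zero_of_ae]
      filter_upwards [hz] with x hx
      have hx' : (f x * k x) ^ 2 = 0 := hx
      simp only [Pi.zero_apply]
      calc (f x ^ 2 * (Real.log (f x ^ 2) - Real.log m)) * k x ^ 2
          = (f x * k x) ^ 2 * (Real.log (f x ^ 2) - Real.log m) := by ring
        _ = 0 := by rw [hx']; ring
    have e2 : ∫ x, (f x * k x) ^ 2 * Real.log ((f x * k x) ^ 2) ∂μ = 0 := by
      rw [integral_eq_zero_of_ae]
      filter_upwards [hz] with x hx
      have hx' : (f x * k x) ^ 2 = 0 := hx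
      simp [hx']
    rw [e1, e2, ← hM, hM1]
    simp
  · have hle : ∫ x, (f x ^ 2 * (Real.log (f x ^ 2) - Real.log m)) * k x ^ 2 ∂μ ≤
        ∫ x, ((f x * k x) ^ 2 * Real.log ((f x * k x) ^ 2) - (f x * k x) ^ 2 * Real.log M -
        (f x * k x) ^ 2 + M / m * f x ^ 2) ∂μ := by
      refine integral_mono i4 ?_ fun x => ?_
      · exact (((i3.sub (i2.mul_const _)).sub i2).add (i1.const_mul _))
      · rcases key x with h | h
        · exact h
        · exact absurd h hM1
    refine hle.trans (le_of_eq ?_)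
    have q1 := integral_add ((i3.sub (i2.mul_const (Real.log M))).sub i2) (i1.const_mul (M / m))
    have q2 := integral_sub (i3.sub (i2.mul_const (Real.log M))) i2
    have q3 := integral_sub i3 (i2.mul_const (Real.log M))
    simp only [Pi.add_apply, Pi.sub_apply] at q1 q2 q3
    beta_reduce
    rw [q1, q2, q3, integral_mul_const, integral_const_mul, ← hM, ← hmdef]
    field_simp
    ring

/-- one Gaussian parameter -/
theorem step [IsProbabilityMeasure μ] {K s : ℝ} (hK : 0 ≤ K) (hs0 : 0 ≤ s)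
    {f : EuclideanSpace ℝ (Fin n) → ℝ} (hf : ContDiff ℝ ∞ f) (hfs : HasCompactSupport f)
    (b : EuclideanSpace ℝ (Fin n))
    (H : ∀ y : ℝ, Entropy μ (fun x => (f x * G (inner ℝ b x - y)) ^ 2) ≤
      K * ((∫ x, ‖gradient (fun x => f x * G (inner ℝ b x - y)) x‖ ^ 2 ∂μ) +
        s * ∫ x, (f x * G (inner ℝ b x - y)) ^ 2 ∂μ)) :
    Entropy μ (fun x => f x ^ 2) ≤
      K * ((∫ x, ‖gradient f x‖ ^ 2 ∂μ) + (s + 1 / 4 * ‖b‖ ^ 2) * ∫ x, f x ^ 2 ∂μ) := by
  have hfc : Continuous f := hf.continuous
  have hgc : Continuous (gradient f) := by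
    have h1 : Continuous (fderiv ℝ f) := hf.continuous_fderiv (by simp)
    exact (InnerProductSpace.toDual ℝ (EuclideanSpace ℝ (Fin n))).symm.continuous.comp h1
  have hgs : HasCompactSupport (gradient f) := by
    have h1 : HasCompactSupport (fderiv ℝ f) := hfs.fderiv ℝ
    refine h1.mono' fun x hx => subset_tsupport _ ?_
    intro h0
    exact hx (by simp [gradient, h0])
  have hm0 : 0 ≤ ∫ x, f x ^ 2 ∂μ := integral_nonneg fun x => sq_nonneg _
  have hI0 : 0 ≤ ∫ x, ‖gradient f x‖ ^ 2 ∂μ := integral_nonneg fun x => sq_nonneg _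
  have zero_out : ∀ (h : EuclideanSpace ℝ (Fin n) → ℝ), (∀ x, f x = 0 → h x = 0) →
      HasCompactSupport h := by
    intro h hh
    refine hfs.mono' fun x hx => subset_tsupport _ ?_
    intro h0
    exact hx (hh x h0)
  have i1 : Integrable (fun x => f x ^ 2) μ := igr (hfc.pow 2) (zero_out _ fun x hx => by simp [hx])
  rcases hm0.eq_or_lt with hm | hm
  · have hz : (fun x => f x ^ 2) =ᵐ[μ] 0 :=
      (integral_eq_zero_iff_of_nonneg (fun x => sq_nonneg _) i1).1 hm.symm
    have e2 : ∫ x, f x ^ 2 * Real.log (f x ^ 2) ∂μ = 0 := by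
      rw [integral_eq_zero_of_ae]
      filter_upwards [hz] with x hx
      have hx' : f x ^ 2 = 0 := hx
      simp [hx']
    have e0 : Entropy μ (fun x => f x ^ 2) = 0 := by
      unfold Entropy; rw [e2, ← hm]; simp
    rw [e0]
    positivity
  set m := ∫ x, f x ^ 2 ∂μ with hmdef
  have hl : Continuous (fun x : EuclideanSpace ℝ (Fin n) => (inner ℝ b x : ℝ)) := by fun_prop
  have iφ : Integrable (fun x => f x ^ 2 * (Real.log (f x ^ 2) - Real.log m)) μ := by
    refine igr ?_ (zero_out _ fun x hx => by simp [hx])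
    have e : (fun x => f x ^ 2 * (Real.log (f x ^ 2) - Real.log m)) =
        fun x => f x ^ 2 * Real.log (f x ^ 2) - f x ^ 2 * Real.log m := by
      funext x; ring
    rw [e]
    exact (Real.continuous_mul_log.comp (hfc.pow 2)).sub ((hfc.pow 2).mul continuous_const)
  have eφ : Entropy μ (fun x => f x ^ 2) =
      ∫ x, f x ^ 2 * (Real.log (f x ^ 2) - Real.log m) ∂μ := by
    have i3 : Integrable (fun x => f x ^ 2 * Real.log (f x ^ 2)) μ :=
      igr (Real.continuous_mul_log.comp (hfc.pow 2)) (zero_out _ fun x hx => by simp [hx])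
    have e : (fun x => f x ^ 2 * (Real.log (f x ^ 2) - Real.log m)) =
        fun x => f x ^ 2 * Real.log (f x ^ 2) - f x ^ 2 * Real.log m := by
      funext x; ring
    rw [e, integral_sub i3 (i1.mul_const _), integral_mul_const]
    unfold Entropy
    rw [← hmdef]
  -- the five Fubini facts
  have iG : Integrable (fun x => ‖gradient f x‖ ^ 2) μ :=
    igr (hgc.norm.pow 2) (hgs.mono' fun x hx => subset_tsupport _ fun h0 => hx (by simp [h0]))
  have iX : Integrable (fun x => 2 * f x * inner ℝ (gradient f x) b) μ :=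
    igr ((continuous_const.mul hfc).mul (hgc.inner continuous_const))
      (zero_out _ fun x hx => by simp [hx])
  have iB : Integrable (fun x => f x ^ 2 * ‖b‖ ^ 2) μ := i1.mul_const _
  obtain ⟨j1, k1⟩ := fub (μ := μ) iφ igr_G2 (G_cont.pow 2) hl
  obtain ⟨j2, k2⟩ := fub (μ := μ) iG igr_G2 (G_cont.pow 2) hl
  obtain ⟨j3, k3⟩ := fub (μ := μ) iX igr_GG' (G_cont.mul G'_cont) hl
  obtain ⟨j4, k4⟩ := fub (μ := μ) iB igr_G'2 (G'_cont.pow 2) hl
  obtain ⟨j5, k5⟩ := fub (μ := μ) i1 igr_G2 (G_cont.pow 2) hl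
  rw [int_G2, mul_one] at k1 k2 k5
  rw [int_GG', mul_zero] at k3
  rw [int_G'2, integral_mul_const] at k4
  rw [eφ, ← k1]
  have hpt : ∀ y : ℝ, (∫ x, f x ^ 2 * (Real.log (f x ^ 2) - Real.log m) *
        G (inner ℝ b x - y) ^ 2 ∂μ) ≤
      K * (((∫ x, ‖gradient f x‖ ^ 2 * G (inner ℝ b x - y) ^ 2 ∂μ) +
        (∫ x, 2 * f x * inner ℝ (gradient f x) b * (G (inner ℝ b x - y) * G' (inner ℝ b x - y)) ∂μ) +
        (∫ x, f x ^ 2 * ‖b‖ ^ 2 * G' (inner ℝ b x - y) ^ 2 ∂μ)) +
        s * ∫ x, f x ^ 2 * G (inner ℝ b x - y) ^ 2 ∂μ) := by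
    intro y
    have cG : Continuous (fun x : EuclideanSpace ℝ (Fin n) => G (inner ℝ b x - y)) :=
      G_cont.comp (hl.sub continuous_const)
    have cG' : Continuous (fun x : EuclideanSpace ℝ (Fin n) => G' (inner ℝ b x - y)) :=
      G'_cont.comp (hl.sub continuous_const)
    have h1 := gibbs (μ := μ) hfc hfs cG (hmdef ▸ hm)
    refine (h1.trans (H y)).trans (le_of_eq ?_)
    have a1 : Integrable (fun x => ‖gradient f x‖ ^ 2 * G (inner ℝ b x - y) ^ 2) μ :=
      igr ((hgc.norm.pow 2).mul (cG.pow 2))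
        (hgs.mono' fun x hx => subset_tsupport _ fun h0 => hx (by simp [h0]))
    have a2 : Integrable (fun x => 2 * f x * inner ℝ (gradient f x) b *
        (G (inner ℝ b x - y) * G' (inner ℝ b x - y))) μ :=
      igr (((continuous_const.mul hfc).mul (hgc.inner continuous_const)).mul (cG.mul cG'))
        (zero_out _ fun x hx => by simp [hx])
    have a3 : Integrable (fun x => f x ^ 2 * ‖b‖ ^ 2 * G' (inner ℝ b x - y) ^ 2) μ :=
      igr (((hfc.pow 2).mul continuous_const).mul (cG'.pow 2)) (zero_out _ fun x hx => by simp [hx])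
    have q1 := integral_add a1 a2
    have q2 := integral_add (a1.add a2) a3
    simp only [Pi.add_apply] at q1 q2
    rw [← q1, ← q2]
    congr 2
    · refine integral_congr_ae (Eventually.of_forall fun x => ?_)
      simp only [Pi.add_apply]
      rw [grad_mul hf, norm_sq_comb]
      ring
    · congr 1
      refine integral_congr_ae (Eventually.of_forall fun x => ?_)
      simp only
      ring
  have hfin := integral_mono j1 ((((j2.add j3).add j4).add (j5.const_mul s)).const_mul K)
    (fun y => hpt y)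
  refine hfin.trans (le_of_eq ?_)
  rw [integral_const_mul]
  congr 1
  have e := integral_add ((j2.add j3).add j4) (j5.const_mul s)
  have e' := integral_add (j2.add j3) j4
  have e'' := integral_add j2 j3
  have e3 := integral_const_mul (μ := (volume : Measure ℝ)) s (fun y : ℝ => ∫ x, f x ^ 2 * G (inner ℝ b x - y) ^ 2 ∂μ)
  simp only [Pi.add_apply] at e e' e'' ⊢
  rw [e, e', e'', e3, k2, k3, k4, k5]
  ring

/-- the base case -/
theorem quasi {f : EuclideanSpace ℝ (Fin n) → ℝ} (hf0 : ∀ x, 0 ≤ f x)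
    (h : ConcaveOn ℝ {x | 0 < f x} (fun x => Real.log (f x))) : QuasiconcaveOn ℝ univ f := by
  intro r
  by_cases hr : 0 < r
  · have h1 := h.convex_ge (Real.log r)
    have e : {x | x ∈ {x | 0 < f x} ∧ Real.log r ≤ Real.log (f x)} = {x | x ∈ univ ∧ r ≤ f x} := by
      ext x
      simp only [mem_setOf_eq, mem_univ, true_and]
      constructor
      · rintro ⟨h2, h3⟩
        exact (Real.log_le_log_iff hr h2).1 h3
      · intro h2
        have h3 : 0 < f x := hr.trans_le h2
        exact ⟨h3, (Real.log_le_log_iff hr h3).2 h2⟩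
    rw [← e]
    exact h1
  · have e : {x | x ∈ univ ∧ r ≤ f x} = univ := by
      ext x
      simp only [mem_setOf_eq, mem_univ, true_and, iff_true]
      exact (not_lt.1 hr).trans (hf0 x)
    rw [e]
    exact convex_univ

/-- semi-concave extension: `log f - (1/4) ∑ ⟨b_j, x⟩²` concave on `{f > 0}` -/
theorem semi [IsProbabilityMeasure μ] {D : ℝ} (hD : 0 ≤ D)
    (hQC : ∀ f : EuclideanSpace ℝ (Fin n) → ℝ, ContDiff ℝ ∞ f → HasCompactSupport f →
      (∀ x, 0 ≤ f x) → QuasiconcaveOn ℝ univ f →
      Entropy μ (fun x => f x ^ 2) ≤ D * ∫ x, ‖gradient f x‖ ^ 2 ∂μ) :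
    ∀ (m : ℕ) (b : Fin m → EuclideanSpace ℝ (Fin n)) (f : EuclideanSpace ℝ (Fin n) → ℝ),
      ContDiff ℝ ∞ f → HasCompactSupport f → (∀ x, 0 ≤ f x) →
      ConcaveOn ℝ {x | 0 < f x} (fun x => Real.log (f x) - 1 / 4 * ∑ j, inner ℝ (b j) x ^ 2) →
      Entropy μ (fun x => f x ^ 2) ≤
        D * ((∫ x, ‖gradient f x‖ ^ 2 ∂μ) + (1 / 4 * ∑ j, ‖b j‖ ^ 2) * ∫ x, f x ^ 2 ∂μ) := by
  intro m
  induction m with
  | zero =>
    intro b f hf hfs hf0 hc
    have h := hQC f hf hfs hf0 (quasi hf0 (by simpa using hc))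
    simpa using h
  | succ m ih =>
    intro b f hf hfs hf0 hc
    have hstep := step (μ := μ) hD (s := 1 / 4 * ∑ j : Fin m, ‖b j.succ‖ ^ 2) (by positivity) hf hfs
      (b 0) (fun y => by
        refine ih (fun j => b j.succ) (fun x => f x * G (inner ℝ (b 0) x - y)) ?_ ?_ ?_ ?_
        · exact hf.mul (G_contDiff.comp ((contDiff_const.inner ℝ contDiff_id).sub contDiff_const))
        · exact hfs.mul_right
        · intro x; exact mul_nonneg (hf0 x) (G_pos _).le
        · have hset : {x | 0 < f x * G (inner ℝ (b 0) x - y)} = {x | 0 < f x} := by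
            ext x
            simp only [mem_setOf_eq]
            exact mul_pos_iff_of_pos_right (G_pos _)
          rw [hset]
          have haff : ConcaveOn ℝ {x | 0 < f x} (fun x : EuclideanSpace ℝ (Fin n) =>
              (y / 2) * inner ℝ (b 0) x + (Real.log (√((√(2 * Real.pi))⁻¹)) - y ^ 2 / 4)) := by
            refine ⟨hc.1, fun x _ z _ p q _ _ hpq => le_of_eq ?_⟩
            simp only [inner_add_right, inner_smul_right, smul_eq_mul]
            have : q = 1 - p := by linarith
            subst this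
            ring
          refine (hc.add haff).congr fun x hx => ?_
          have hx' : 0 < f x := hx
          simp only [Pi.add_apply]
          rw [Real.log_mul hx'.ne' (G_pos _).ne', Fin.sum_univ_succ]
          have hlogG : Real.log (G (inner ℝ (b 0) x - y)) =
              Real.log (√((√(2 * Real.pi))⁻¹)) - (inner ℝ (b 0) x - y) ^ 2 / 4 := by
            unfold G
            rw [Real.log_mul (by positivity) (by positivity), Real.log_exp]
            ring
          rw [hlogG]
          ring)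
    rw [Fin.sum_univ_succ]
    refine hstep.trans (le_of_eq ?_)
    ring

end Vale.Agent.P245.H235.Semi
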