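import Vale.Agent.P245.H235.Semi

/-! P245: the semi-concave extension in the form of helper719's `main2` clause (2). -/

set_option linter.all false

open MeasureTheory Set Filter
open scoped ContDiff

namespace Vale.Agent.P245.H235.Semi

open Vale.Agent.P245

theorem semi_of_high {n : ℕ} {μ : Measure (EuclideanSpace ℝ (Fin n))} [IsProbabilityMeasure μ]
    {C a : ℝ} (hC : 0 < C)
    (h2 : ∀ f : EuclideanSpace ℝ (Fin n) → ℝ, ContDiff ℝ ∞ f → HasCompactSupport f → ∀ T : ℝ,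
        (∀ t, T < t → Convex ℝ {x | t ≤ |f x|}) →
        Entropy μ (fun x => f x ^ 2) ≤ C * (1 + Real.log (1 + T ^ 2 / ∫ x, f x ^ 2 ∂μ)) * a ^ 2 *
          ∫ x, ‖gradient f x‖ ^ 2 ∂μ)
    (m : ℕ) (b : Fin m → EuclideanSpace ℝ (Fin n)) (f : EuclideanSpace ℝ (Fin n) → ℝ)
    (hf : ContDiff ℝ ∞ f) (hfs : HasCompactSupport f) (hf0 : ∀ x, 0 ≤ f x)
    (hc : ConcaveOn ℝ {x | 0 < f x} (fun x => Real.log (f x) - 1 / 4 * ∑ j, inner ℝ (b j) x ^ 2)) :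
    Entropy μ (fun x => f x ^ 2) ≤
      C * a ^ 2 * ((∫ x, ‖gradient f x‖ ^ 2 ∂μ) + (1 / 4 * ∑ j, ‖b j‖ ^ 2) * ∫ x, f x ^ 2 ∂μ) := by
  refine semi (μ := μ) (D := C * a ^ 2) (by positivity) ?_ m b f hf hfs hf0 hc
  intro g hg hgs hg0 hgq
  have h := h2 g hg hgs 0 (fun t _ => by
    have e : {x | t ≤ |g x|} = {x | x ∈ (univ : Set (EuclideanSpace ℝ (Fin n))) ∧ t ≤ g x} := by
      ext x; simp [abs_of_nonneg (hg0 x)]
    rw [e]
    exact hgq t)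
  simpa using h

end Vale.Agent.P245.H235.Semi
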