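import Vale.Agent.P245.Defs

/-! P245: subadditivity of the entropy: `f² = ∑ f_i²` gives `Ent(f²) ≤ ∑ Ent(f_i²)`. -/

set_option linter.all false

open MeasureTheory Set Filter
open scoped ContDiff

namespace Vale.Agent.P245.H235.Sum

open Vale.Agent.P245

variable {n : ℕ} {μ : Measure (EuclideanSpace ℝ (Fin n))}

theorem igr [IsFiniteMeasure μ] {h : EuclideanSpace ℝ (Fin n) → ℝ} (hc : Continuous h)
    (hs : HasCompactSupport h) : Integrable h μ :=
  hc.integrable_of_hasCompactSupport hs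

/-- continuity of `g² log f²` if `g² ≤ f²` is not needed: integrability -/
theorem igr_log [IsProbabilityMeasure μ] {f g : EuclideanSpace ℝ (Fin n) → ℝ} (hf : Continuous f)
    (hfs : HasCompactSupport f) (hg : Continuous g) (hle : ∀ x, g x ^ 2 ≤ f x ^ 2) :
    Integrable (fun x => g x ^ 2 * Real.log (f x ^ 2)) μ := by
  have zero_out : ∀ (h : EuclideanSpace ℝ (Fin n) → ℝ), (∀ x, f x = 0 → h x = 0) →
      HasCompactSupport h := by
    intro h hh
    refine hfs.mono' fun x hx => subset_tsupport _ ?_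
    intro h0
    exact hx (hh x h0)
  have i3 : Integrable (fun x => f x ^ 2 * Real.log (f x ^ 2)) μ :=
    igr (Real.continuous_mul_log.comp (hf.pow 2)) (zero_out _ fun x hx => by simp [hx])
  refine Integrable.mono' i3.norm ?_ (Eventually.of_forall fun x => ?_)
  · exact ((hg.pow 2).measurable.mul (Real.measurable_log.comp (hf.pow 2).measurable)).aestronglyMeasurable
  · rw [Real.norm_eq_abs, Real.norm_eq_abs, abs_mul, abs_mul, abs_of_nonneg (sq_nonneg (g x)),
      abs_of_nonneg (sq_nonneg (f x))]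
    exact mul_le_mul_of_nonneg_right (hle x) (abs_nonneg _)

theorem gibbs2 [IsProbabilityMeasure μ] {f g : EuclideanSpace ℝ (Fin n) → ℝ} (hf : Continuous f)
    (hfs : HasCompactSupport f) (hg : Continuous g) (hle : ∀ x, g x ^ 2 ≤ f x ^ 2)
    (hm : 0 < ∫ x, f x ^ 2 ∂μ) :
    (∫ x, g x ^ 2 * Real.log (f x ^ 2) ∂μ) - (∫ x, g x ^ 2 ∂μ) * Real.log (∫ x, f x ^ 2 ∂μ) ≤
      Entropy μ (fun x => g x ^ 2) := by
  set m := ∫ x, f x ^ 2 ∂μ with hmdef
  have hg0 : ∀ x, f x = 0 → g x = 0 := fun x hx => by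
    have := hle x
    rw [hx] at this
    nlinarith [sq_nonneg (g x)]
  have zero_out : ∀ (h : EuclideanSpace ℝ (Fin n) → ℝ), (∀ x, f x = 0 → h x = 0) →
      HasCompactSupport h := by
    intro h hh
    refine hfs.mono' fun x hx => subset_tsupport _ ?_
    intro h0
    exact hx (hh x h0)
  have i1 : Integrable (fun x => f x ^ 2) μ := igr (hf.pow 2) (zero_out _ fun x hx => by simp [hx])
  have i2 : Integrable (fun x => g x ^ 2) μ :=
    igr (hg.pow 2) (zero_out _ fun x hx => by simp [hg0 x hx])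
  have i3 : Integrable (fun x => g x ^ 2 * Real.log (g x ^ 2)) μ :=
    igr (Real.continuous_mul_log.comp (hg.pow 2)) (zero_out _ fun x hx => by simp [hg0 x hx])
  have i4 := igr_log (μ := μ) hf hfs hg hle
  set M := ∫ x, g x ^ 2 ∂μ with hM
  have hM0 : 0 ≤ M := integral_nonneg fun x => sq_nonneg _
  unfold Entropy
  beta_reduce
  rw [← hM]
  rcases hM0.eq_or_lt with hM1 | hMp
  · have hz : (fun x => g x ^ 2) =ᵐ[μ] 0 :=
      (integral_eq_zero_iff_of_nonneg (fun x => sq_nonneg _) i2).1 hM1.symm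
    have e1 : ∫ x, g x ^ 2 * Real.log (f x ^ 2) ∂μ = 0 := by
      rw [integral_eq_zero_of_ae]
      filter_upwards [hz] with x hx
      have hx' : g x ^ 2 = 0 := hx
      simp [hx']
    have e2 : ∫ x, g x ^ 2 * Real.log (g x ^ 2) ∂μ = 0 := by
      rw [integral_eq_zero_of_ae]
      filter_upwards [hz] with x hx
      have hx' : g x ^ 2 = 0 := hx
      simp [hx']
    rw [e1, e2, ← hM1]
    simp
  have key : ∀ x, g x ^ 2 * Real.log (f x ^ 2) - g x ^ 2 * Real.log m ≤
      g x ^ 2 * Real.log (g x ^ 2) - g x ^ 2 * Real.log M - g x ^ 2 + M / m * f x ^ 2 := by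
    intro x
    by_cases hgx : g x = 0
    · rw [hgx]
      simp only [ne_eq, OfNat.ofNat_ne_zero, not_false_eq_true, zero_pow, Real.log_zero, mul_zero,
        zero_mul, sub_zero, zero_add]
      positivity
    · have hfx : f x ≠ 0 := fun h => hgx (hg0 x h)
      have hg2 : 0 < g x ^ 2 := by positivity
      have hf2 : 0 < f x ^ 2 := by positivity
      have hl := Real.log_le_sub_one_of_pos (x := (M / m * f x ^ 2) / g x ^ 2) (by positivity)
      rw [Real.log_div (by positivity) (by positivity), Real.log_mul (by positivity) (by positivity),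
        Real.log_div (by positivity) (by positivity)] at hl
      have h5 := mul_le_mul_of_nonneg_left hl hg2.le
      have aux : ∀ A B : ℝ, A ≠ 0 → A * (B / A - 1) = B - A := by
        intro A B hA; field_simp
      rw [aux _ _ hg2.ne'] at h5
      linarith [h5]
  have hle2 := integral_mono (i4.sub (i2.mul_const (Real.log m)))
    (((i3.sub (i2.mul_const (Real.log M))).sub i2).add (i1.const_mul (M / m))) (fun x => key x)
  have q0 := integral_sub i4 (i2.mul_const (Real.log m))
  have q1 := integral_add ((i3.sub (i2.mul_const (Real.log M))).sub i2) (i1.const_mul (M / m))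
  have q2 := integral_sub (i3.sub (i2.mul_const (Real.log M))) i2
  have q3 := integral_sub i3 (i2.mul_const (Real.log M))
  simp only [Pi.add_apply, Pi.sub_apply] at q0 q1 q2 q3 hle2
  rw [q0, q1, q2, q3, integral_mul_const, integral_mul_const, integral_const_mul, ← hM, ← hmdef] at hle2
  have hmm : M / m * m = M := by field_simp
  linarith [hle2]

/-- subadditivity -/
theorem ent_sum [IsProbabilityMeasure μ] {ι : Type*} (S : Finset ι)
    {f : EuclideanSpace ℝ (Fin n) → ℝ} {g : ι → EuclideanSpace ℝ (Fin n) → ℝ} (hf : Continuous f)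
    (hfs : HasCompactSupport f) (hg : ∀ i ∈ S, Continuous (g i))
    (hsum : ∀ x, f x ^ 2 = ∑ i ∈ S, g i x ^ 2) :
    Entropy μ (fun x => f x ^ 2) ≤ ∑ i ∈ S, Entropy μ (fun x => g i x ^ 2) := by
  have hle : ∀ i ∈ S, ∀ x, g i x ^ 2 ≤ f x ^ 2 := fun i hi x => by
    rw [hsum x]
    exact Finset.single_le_sum (f := fun i => g i x ^ 2) (fun j _ => sq_nonneg _) hi
  have zero_out : ∀ (h : EuclideanSpace ℝ (Fin n) → ℝ), (∀ x, f x = 0 → h x = 0) →
      HasCompactSupport h := by
    intro h hh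
    refine hfs.mono' fun x hx => subset_tsupport _ ?_
    intro h0
    exact hx (hh x h0)
  have i1 : Integrable (fun x => f x ^ 2) μ := igr (hf.pow 2) (zero_out _ fun x hx => by simp [hx])
  have hm0 : 0 ≤ ∫ x, f x ^ 2 ∂μ := integral_nonneg fun x => sq_nonneg _
  have hg0 : ∀ i ∈ S, ∀ x, f x = 0 → g i x = 0 := fun i hi x hx => by
    have := hle i hi x
    rw [hx] at this
    nlinarith [sq_nonneg (g i x)]
  have i2 : ∀ i ∈ S, Integrable (fun x => g i x ^ 2) μ := fun i hi =>
    igr ((hg i hi).pow 2) (zero_out _ fun x hx => by simp [hg0 i hi x hx])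
  rcases hm0.eq_or_lt with hm | hm
  · have hz : (fun x => f x ^ 2) =ᵐ[μ] 0 :=
      (integral_eq_zero_iff_of_nonneg (fun x => sq_nonneg _) i1).1 hm.symm
    have e0 : ∀ h : EuclideanSpace ℝ (Fin n) → ℝ, (∀ x, h x ^ 2 ≤ f x ^ 2) →
        Entropy μ (fun x => h x ^ 2) = 0 := by
      intro h hh
      have hz' : (fun x => h x ^ 2) =ᵐ[μ] 0 := by
        filter_upwards [hz] with x hx
        have hx' : f x ^ 2 = 0 := hx
        have := hh x
        rw [hx'] at this
        exact le_antisymm this (sq_nonneg _)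
      have e2 : ∫ x, h x ^ 2 * Real.log (h x ^ 2) ∂μ = 0 := by
        rw [integral_eq_zero_of_ae]
        filter_upwards [hz'] with x hx
        have hx' : h x ^ 2 = 0 := hx
        simp [hx']
      have e3 : ∫ x, h x ^ 2 ∂μ = 0 := by
        rw [integral_eq_zero_of_ae hz']
      unfold Entropy
      rw [e2, e3]; simp
    rw [e0 f (fun x => le_rfl)]
    exact Finset.sum_nonneg fun i hi => (e0 (g i) (hle i hi)).ge
  have hj : ∀ i ∈ S, Integrable (fun x => g i x ^ 2 * Real.log (f x ^ 2)) μ := fun i hi =>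
    igr_log hf hfs (hg i hi) (hle i hi)
  have e1 : ∫ x, f x ^ 2 * Real.log (f x ^ 2) ∂μ =
      ∑ i ∈ S, ∫ x, g i x ^ 2 * Real.log (f x ^ 2) ∂μ := by
    rw [← integral_finset_sum S hj]
    refine integral_congr_ae (Eventually.of_forall fun x => ?_)
    simp only
    rw [← Finset.sum_mul, ← hsum x]
  have e2 : ∫ x, f x ^ 2 ∂μ = ∑ i ∈ S, ∫ x, g i x ^ 2 ∂μ := by
    rw [← integral_finset_sum S i2]
    exact integral_congr_ae (Eventually.of_forall fun x => hsum x)
  have h3 : Entropy μ (fun x => f x ^ 2) = ∑ i ∈ S, ((∫ x, g i x ^ 2 * Real.log (f x ^ 2) ∂μ) -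
      (∫ x, g i x ^ 2 ∂μ) * Real.log (∫ x, f x ^ 2 ∂μ)) := by
    rw [Finset.sum_sub_distrib, ← Finset.sum_mul, ← e2, ← e1]
    rfl
  rw [h3]
  exact Finset.sum_le_sum fun i hi => gibbs2 hf hfs (hg i hi) (hle i hi) hm

/-- decomposition principle, from helper719's clause (2) -/
theorem sum_of_high [IsProbabilityMeasure μ] {C a : ℝ} (hC : 0 < C)
    (h2 : ∀ f : EuclideanSpace ℝ (Fin n) → ℝ, ContDiff ℝ ∞ f → HasCompactSupport f → ∀ T : ℝ,
        (∀ t, T < t → Convex ℝ {x | t ≤ |f x|}) →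
        Entropy μ (fun x => f x ^ 2) ≤ C * (1 + Real.log (1 + T ^ 2 / ∫ x, f x ^ 2 ∂μ)) * a ^ 2 *
          ∫ x, ‖gradient f x‖ ^ 2 ∂μ)
    (N : ℕ) (f : EuclideanSpace ℝ (Fin n) → ℝ) (g : Fin N → EuclideanSpace ℝ (Fin n) → ℝ)
    (hf : Continuous f) (hfs : HasCompactSupport f) (hg : ∀ i, ContDiff ℝ ∞ (g i))
    (hq : ∀ i, ∀ t, 0 < t → Convex ℝ {x | t ≤ |g i x|})
    (hsum : ∀ x, f x ^ 2 = ∑ i, g i x ^ 2) :
    Entropy μ (fun x => f x ^ 2) ≤ C * a ^ 2 * ∑ i, ∫ x, ‖gradient (g i) x‖ ^ 2 ∂μ := by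
  have h := ent_sum (μ := μ) Finset.univ hf hfs (fun i _ => (hg i).continuous) hsum
  refine h.trans ?_
  rw [Finset.mul_sum]
  refine Finset.sum_le_sum fun i _ => ?_
  have hgs : HasCompactSupport (g i) := by
    refine hfs.mono' fun x hx => subset_tsupport _ ?_
    intro h0
    have h1 : g i x ^ 2 ≤ f x ^ 2 := by
      rw [hsum x]
      exact Finset.single_le_sum (f := fun i => g i x ^ 2) (fun j _ => sq_nonneg _)
        (Finset.mem_univ i)
    rw [h0] at h1
    exact hx (by nlinarith [sq_nonneg (g i x)])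
  have := h2 (g i) (hg i) hgs 0 (hq i)
  simpa using this

end Vale.Agent.P245.H235.Sum
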