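import Vale.Agent.P245.H235.Fin

/-!
P245, KLS: the literal targets of 847 (`kls_final`) and 339 (`kls`), from `∃ C, PoincIso C` (helper235).
-/

set_option linter.all false

open MeasureTheory Filter Topology Set Metric Matrix
open scoped NNReal ENNReal ContDiff
open Vale.Agent.P227.M Vale.Agent.P254 Vale.Agent.P245 Vale.Agent.P245.Q895

namespace Vale.Agent.P245.K2.Norm

theorem PoincIso.mono {C D : ℝ} (h : PoincIso C) (hCD : C ≤ D) : PoincIso D := by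
  intro n V c1 C1 hV h0 h1 f hf
  refine (h n V c1 C1 hV h0 h1 f hf).trans (mul_le_mul_of_nonneg_right hCD ?_)
  unfold Ex
  exact div_nonneg (integral_nonneg fun x => mul_nonneg
    (Finset.sum_nonneg fun i _ => sq_nonneg _) (Real.exp_pos _).le) hV.Z_pos.le

/-- 847's literal target -/
theorem kls_final_of (h : ∃ C : ℝ, PoincIso C) :
    ∃ C : ℝ, 0 < C ∧ ∀ (n : ℕ) (μ : Measure (EuclideanSpace ℝ (Fin n))) [IsProbabilityMeasure μ],
      HasLogConcaveDensity μ → ∀ (b : Fin n → ℝ) (K : Matrix (Fin n) (Fin n) ℝ),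
      (∀ i, ∫ x, x i ∂μ = b i) → (∀ i j, ∫ x, (x i - b i) * (x j - b j) ∂μ = K i j) →
      ∀ f : EuclideanSpace ℝ (Fin n) → ℝ, ContDiff ℝ ∞ f → HasCompactSupport f →
        (∫ x, f x ^ 2 ∂μ) - (∫ x, f x ∂μ) ^ 2 ≤
          C * ∫ x, ∑ i, ∑ j, K i j * (gradient f x i * gradient f x j) ∂μ := by
  obtain ⟨C, hC⟩ := h
  refine ⟨max C 1, by positivity, fun n μ _ hlc b K hb hK f hf hs => ?_⟩
  exact poinc_grad (hC.mono (le_max_left _ _)) hlc hb hK hf hs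

/-- 339's form -/
theorem kls_dir_of (h : ∃ C : ℝ, PoincIso C) :
    ∃ C : ℝ, 0 < C ∧ ∀ (n : ℕ) (μ : Measure (EuclideanSpace ℝ (Fin n))) [IsProbabilityMeasure μ],
      HasLogConcaveDensity μ → ∀ v : ℝ,
      (∀ θ : EuclideanSpace ℝ (Fin n), ‖θ‖ = 1 →
        ∫ x, (inner ℝ x θ - ∫ y, inner ℝ y θ ∂μ) ^ 2 ∂μ ≤ v) →
      ∀ f : EuclideanSpace ℝ (Fin n) → ℝ, ContDiff ℝ ∞ f → HasCompactSupport f →
        (∫ x, f x ^ 2 ∂μ) - (∫ x, f x ∂μ) ^ 2 ≤ C * v * ∫ x, ‖gradient f x‖ ^ 2 ∂μ := by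
  obtain ⟨C, hC⟩ := h
  refine ⟨max C 1, by positivity, fun n μ _ hlc v hv f hf hs => ?_⟩
  refine poinc_dir (by positivity) (hC.mono (le_max_left _ _)) hlc (fun θ => ?_) hf hs
  have hG : ∀ θ : E n, Gr (fun x : E n => inner ℝ x θ) := fun θ => by
    have h1 := gr_lin0 (n := n) (fun i => θ i)
    simpa only [inner_sum] using h1
  have hvar : ∀ θ : E n, ∫ x, (inner ℝ x θ) ^ 2 ∂μ - (∫ x, inner ℝ x θ ∂μ) ^ 2 =
      ∫ x, (inner ℝ x θ - ∫ y, inner ℝ y θ ∂μ) ^ 2 ∂μ := fun θ => (var_eq hlc (hG θ)).symm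
  rw [hvar]
  by_cases h0 : θ = 0
  · subst h0
    simp
  · have hr : ‖θ‖ ≠ 0 := norm_ne_zero_iff.2 h0
    have h1 := hv (‖θ‖⁻¹ • θ) (by rw [norm_smul, norm_inv, norm_norm, inv_mul_cancel₀ hr])
    simp only [inner_smul_right] at h1
    rw [integral_const_mul] at h1
    have e : ∀ x : E n, (‖θ‖⁻¹ * inner ℝ x θ - ‖θ‖⁻¹ * ∫ y, inner ℝ y θ ∂μ) ^ 2 =
        (‖θ‖ ^ 2)⁻¹ * (inner ℝ x θ - ∫ y, inner ℝ y θ ∂μ) ^ 2 := fun x => by
      rw [← mul_sub, mul_pow, inv_pow]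
    simp only [e] at h1
    rw [integral_const_mul, inv_mul_le_iff₀ (by positivity)] at h1
    linarith

end Vale.Agent.P245.K2.Norm
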